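import Vale.Agent.P073.Lin

open Set Metric Vale.Agent.P073

theorem Vale.Agent.Results.P073.Mono.result (n : ℕ) (p : ℝ) (hp : 1 ≤ p) (Ω Λ : Set (E n))
    (hΩ : IsDomain Ω) (hΛ : IsDomain Λ) (f : E n → E n) (D : E n → E n →L[ℝ] E n)
    (hH : Homeo Ω Λ f) (hS : Sobolev Ω p f D) (A : E n ≃L[ℝ] E n)
    (h : ∀ x ∈ Ω, ∃ r > 0, ball x r ⊆ Ω ∧
      (GradOn (ball x r) (fun y => A (f y)) ∨ DomOn (ball x r) (fun y => A (f y)))) :
    Approximable Ω Λ p f D := by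
  refine approx_lin A hΩ hΛ hp hH hS fun x hx => ?_
  obtain ⟨r, hr, hb, ⟨u, h⟩ | ⟨u, h⟩⟩ := h x hx
  · exact loc_of_grad hr h.1 h.2 (A.continuous.comp_continuousOn (hH.2.1.mono hb))
      (A.injective.comp_injOn (hH.1.injOn.mono hb))
  · exact loc_of_strict hr h.1 h.2.1 h.2.2
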